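import Vale.Agent.Lib.P199.CBH
import Vale.Agent.Lib.P199.LocFin
import Vale.Agent.Lib.P199.Solvable

namespace Vale.Agent.Results.P199.Combined

universe u v

/-- Four results on Kurosh's problem in one statement.  Let `D` be a division ring algebraic over a
central subfield `F`.
(1) If `G` is a solvable subgroup of the multiplicative group of `D`, every finite subset of the
`F`-subalgebra generated by `G` generates a finite-dimensional `F`-subalgebra.
(2) If `R` is an `F`-subalgebra all of whose finite subsets generate finite-dimensional subalgebras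
and `t ≠ 0` normalises `R`, the subalgebra generated by `R` and `t` has the same property.
(3) If `a` is non-central and every finite set of conjugates of `a` generates a finite-dimensional
subalgebra, then every finite subset of `D` does.
(4) If `a` is non-central and adjoining `a` to any finite-dimensional subalgebra gives a
finite-dimensional subalgebra, then every finite subset of `D` generates a finite-dimensional
subalgebra. -/
theorem result (F : Type u) (D : Type v) [Field F] [DivisionRing D] [Algebra F D]
    [Algebra.IsAlgebraic F D] :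
    (∀ (G : Subgroup Dˣ) [Group.IsSolvable G] (s : Finset D),
      (s : Set D) ⊆ Algebra.adjoin F (Units.val '' (G : Set Dˣ)) →
      FiniteDimensional F (Algebra.adjoin F (s : Set D))) ∧
    (∀ R : Subalgebra F D,
      (∀ s : Finset D, (s : Set D) ⊆ R → FiniteDimensional F (Algebra.adjoin F (s : Set D))) →
      ∀ t : D, t ≠ 0 → (∀ x ∈ R, t * x * t⁻¹ ∈ R) → (∀ x ∈ R, t⁻¹ * x * t ∈ R) →
      ∀ s : Finset D, (s : Set D) ⊆ Algebra.adjoin F (insert t (R : Set D)) →
      FiniteDimensional F (Algebra.adjoin F (s : Set D))) ∧
    (∀ a : D, (∃ y, a * y ≠ y * a) →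
      (∀ s : Finset D, (∀ x ∈ s, ∃ w : D, w ≠ 0 ∧ x = w * a * w⁻¹) →
        FiniteDimensional F (Algebra.adjoin F (s : Set D))) →
      ∀ s : Finset D, FiniteDimensional F (Algebra.adjoin F (s : Set D))) ∧
    (∀ a : D, (∃ y, a * y ≠ y * a) →
      (∀ B : Subalgebra F D, FiniteDimensional F B →
        FiniteDimensional F (Algebra.adjoin F (insert a (B : Set D)))) →
      ∀ s : Finset D, FiniteDimensional F (Algebra.adjoin F (s : Set D))) := by
  refine ⟨?_, ?_, ?_, ?_⟩
  · intro G _ s hs
    exact Vale.Agent.Lib.P199.locFin_alg_of_isSolvable G s hs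
  · intro R hR t ht h1 h2 s hs
    have hRR : Algebra.adjoin F (R : Set D) = R := Algebra.adjoin_eq R
    refine Vale.Agent.Lib.P199.locFin_adjoin_insert (R : Set D) ?_ t ht ?_ ?_ s hs
    · rw [hRR]; exact hR
    · rw [hRR]; exact h1
    · rw [hRR]; exact h2
  · intro a ha h s
    exact Vale.Agent.Lib.P199.locFin_of_conjugates a ha h s
  · intro a ha h s
    exact Vale.Agent.Lib.P199.locFin_of_good_element a ha h s

end Vale.Agent.Results.P199.Combined
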