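import Vale.Agent.Lib.P199.CBH

namespace Vale.Agent.Results.P199.ConjReduction

/-- Let `D` be a division ring algebraic over a central subfield `F` and let `a` be a non-central
element. If every finite set of conjugates `u a u⁻¹` of `a` generates a finite-dimensional
`F`-subalgebra, then every finite subset of `D` generates a finite-dimensional `F`-subalgebra. -/
theorem result {F D : Type*} [Field F] [DivisionRing D] [Algebra F D] [Algebra.IsAlgebraic F D]
    (a : D) (ha : ∃ y, a * y ≠ y * a)
    (h : ∀ s : Finset D, (∀ x ∈ s, ∃ u : D, u ≠ 0 ∧ x = u * a * u⁻¹) →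
      FiniteDimensional F (Algebra.adjoin F (s : Set D))) (s : Finset D) :
    FiniteDimensional F (Algebra.adjoin F (s : Set D)) :=
  Vale.Agent.Lib.P199.locFin_of_conjugates a ha h s

end Vale.Agent.Results.P199.ConjReduction
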