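import Vale.Agent.Lib.P199.LocFin

namespace Vale.Agent.Results.P199.NormalizingExt

/-- Let `D` be a division ring algebraic over a central subfield `F`, let `R` be an
`F`-subalgebra all of whose finite subsets generate finite-dimensional subalgebras, and let
`t ≠ 0` normalise `R`. Then every finite subset of the subalgebra generated by `R` and `t`
generates a finite-dimensional subalgebra. -/
theorem result {F D : Type*} [Field F] [DivisionRing D] [Algebra F D] [Algebra.IsAlgebraic F D]
    (R : Subalgebra F D)
    (hR : ∀ s : Finset D, (s : Set D) ⊆ R → FiniteDimensional F (Algebra.adjoin F (s : Set D)))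
    (t : D) (ht : t ≠ 0) (h1 : ∀ x ∈ R, t * x * t⁻¹ ∈ R) (h2 : ∀ x ∈ R, t⁻¹ * x * t ∈ R)
    (s : Finset D) (hs : (s : Set D) ⊆ Algebra.adjoin F (insert t (R : Set D))) :
    FiniteDimensional F (Algebra.adjoin F (s : Set D)) := by
  have hRR : Algebra.adjoin F (R : Set D) = R := Algebra.adjoin_eq R
  refine Vale.Agent.Lib.P199.locFin_adjoin_insert (R : Set D) ?_ t ht ?_ ?_ s hs
  · rw [hRR]; exact hR
  · rw [hRR]; exact h1
  · rw [hRR]; exact h2

end Vale.Agent.Results.P199.NormalizingExt
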