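import Vale.Agent.Lib.P199.Solvable

namespace Vale.Agent.Results.P199.SolvableLocFin

/-- Let `D` be a division ring that is algebraic over a central subfield `F`, and let `G` be a
solvable subgroup of the multiplicative group of `D`. Then every finite subset of the
`F`-subalgebra `F[G]` generated by `G` generates a finite-dimensional `F`-subalgebra. -/
theorem result {F D : Type*} [Field F] [DivisionRing D] [Algebra F D] [Algebra.IsAlgebraic F D]
    (G : Subgroup Dˣ) [Group.IsSolvable G] (s : Finset D)
    (hs : (s : Set D) ⊆ Algebra.adjoin F (Units.val '' (G : Set Dˣ))) :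
    FiniteDimensional F (Algebra.adjoin F (s : Set D)) :=
  Vale.Agent.Lib.P199.locFin_alg_of_isSolvable G s hs

end Vale.Agent.Results.P199.SolvableLocFin
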